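import Vale.Agent.P371.Final

open Vale.Agent.P371

theorem Vale.Agent.Results.P371.Main.result (γ : ℝ) (h1 : 1 / 2 < γ) (h2 : γ < 3 / 2) (m : ℕ)
    (hm : 1 ≤ m) :
    LT γ m = LT γ 1 ∧ LT γ 1 = LOne γ ∧
      LOne γ = ENNReal.ofReal (2 * ((γ - 1 / 2) / (γ + 1 / 2)) ^ (γ - 1 / 2) * Lcl γ) :=
  ⟨(LT_eq h1 h2 m hm).trans (LT_eq h1 h2 1 le_rfl).symm,
    (LT_eq h1 h2 1 le_rfl).trans (LOne_eq h1 h2).symm, LOne_eq h1 h2⟩
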